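import Mathlib

namespace Vale.Agent.Lib.P034

open Finset

/-- Every real in `(0,1]` lies in a dyadic interval `((1/2)^(t+1), (1/2)^t]`. -/
theorem exists_cls (x : ℝ) (h0 : 0 < x) (h1 : x ≤ 1) :
    ∃ t : ℕ, (1/2 : ℝ)^(t+1) < x ∧ x ≤ (1/2 : ℝ)^t := by
  classical
  have hex : ∃ t : ℕ, (1/2 : ℝ)^(t+1) < x := by
    obtain ⟨n, hn⟩ := exists_pow_lt_of_lt_one h0 (by norm_num : (1/2:ℝ) < 1)
    refine ⟨n, lt_of_le_of_lt ?_ hn⟩
    rw [pow_succ]
    have : (0:ℝ) ≤ (1/2)^n := by positivity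
    linarith
  refine ⟨Nat.find hex, Nat.find_spec hex, ?_⟩
  rcases Nat.eq_zero_or_pos (Nat.find hex) with h | h
  · rw [h]; simpa using h1
  · have := Nat.find_min hex (Nat.sub_lt h Nat.one_pos)
    rw [Nat.sub_add_cancel h] at this
    exact not_lt.mp this

theorem sum_succ_half (T : ℕ) :
    ∑ t ∈ range T, ((t:ℝ)+1) * (1/2:ℝ)^t = 4 - (2*T+4) * (1/2:ℝ)^T := by
  induction T with
  | zero => simp
  | succ n ih => rw [sum_range_succ, ih, pow_succ]; push_cast; ring

theorem sum_third (T : ℕ) :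
    ∑ t ∈ range T, (1/3:ℝ)^(t+1) = (1 - (1/3:ℝ)^T)/2 := by
  induction T with
  | zero => simp
  | succ n ih => rw [sum_range_succ, ih, pow_succ]; ring

/-- Elementary symmetric sums are controlled by an exponential. -/
theorem powersetCard_prod_le {ι : Type*} [DecidableEq ι] (C : Finset ι) (x : ι → ℝ)
    (hx : ∀ i ∈ C, 0 ≤ x i) (m : ℕ) (s : ℝ) (hs : 0 < s) :
    ∑ J ∈ C.powersetCard m, ∏ i ∈ J, x i ≤ (1/s)^m * Real.exp (s * ∑ i ∈ C, x i) := by
  have h1 : ∑ J ∈ C.powersetCard m, ∏ i ∈ J, x i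
      = (1/s)^m * ∑ J ∈ C.powersetCard m, ∏ i ∈ J, (s * x i) := by
    rw [mul_sum]
    refine sum_congr rfl fun J hJ => ?_
    rw [prod_mul_distrib, prod_const, (mem_powersetCard.mp hJ).2, ← mul_assoc, ← mul_pow]
    have : 1 / s * s = 1 := by field_simp
    rw [this, one_pow, one_mul]
  rw [h1]
  refine mul_le_mul_of_nonneg_left ?_ (by positivity)
  calc ∑ J ∈ C.powersetCard m, ∏ i ∈ J, (s * x i)
      ≤ ∑ J ∈ C.powerset, ∏ i ∈ J, (s * x i) := by
        refine sum_le_sum_of_subset_of_nonneg (fun J hJ => mem_powerset.mpr (mem_powersetCard.mp hJ).1) ?_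
        intro J hJ _
        exact prod_nonneg fun i hi => mul_nonneg hs.le (hx i (mem_powerset.mp hJ hi))
    _ = ∏ i ∈ C, (1 + s * x i) := by rw [prod_one_add]
    _ ≤ ∏ i ∈ C, Real.exp (s * x i) := by
        refine prod_le_prod (fun i hi => ?_) (fun i hi => ?_)
        · have := hx i hi; positivity
        · have := Real.add_one_le_exp (s * x i); linarith
    _ = Real.exp (s * ∑ i ∈ C, x i) := by rw [← Real.exp_sum, mul_sum]

theorem core_aux {ι : Type*} [Fintype ι] [DecidableEq ι] (lam pi : ι → ℝ)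
    (hlam0 : ∀ i, 0 ≤ lam i) (hlam1 : ∀ i, lam i ≤ 1) (hpi : ∀ i, 0 ≤ pi i)
    (hbud : ∑ i, lam i * pi i ≤ 1/2) (K : ℝ) (hK : 1000000 ≤ K) :
    ∃ G : Finset (Finset ι), (∀ J ∈ G, ∀ i ∈ J, 0 < lam i) ∧ (∀ J ∈ G, J.Nonempty) ∧
      (∀ I : Finset ι, 1 ≤ ∑ i ∈ I, lam i → ∃ J ∈ G, J ⊆ I) ∧
      ∑ J ∈ G, ∏ i ∈ J, (pi i / K) ≤ 1/2 := by
  classical
  have hcls : ∀ i, ∃ t : ℕ, 0 < lam i → ((1/2 : ℝ)^(t+1) < lam i ∧ lam i ≤ (1/2 : ℝ)^t) := by
    intro i
    by_cases h : 0 < lam i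
    · obtain ⟨t, ht⟩ := exists_cls (lam i) h (hlam1 i)
      exact ⟨t, fun _ => ht⟩
    · exact ⟨0, fun h' => absurd h' h⟩
  choose cls hcls using hcls
  set P : Finset ι := univ.filter (fun i => 0 < lam i) with hP
  set C : ℕ → Finset ι := fun t => P.filter (fun i => cls i = t) with hC
  set T : ℕ := P.sup cls + 1 with hT
  have hclsT : ∀ i ∈ P, cls i ∈ range T := by
    intro i hi
    rw [mem_range, hT]
    exact Nat.lt_succ_of_le (le_sup hi)
  set β : ℕ → ℝ := fun t => ∑ i ∈ C t, lam i * pi i with hβ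
  have hβ0 : ∀ t, 0 ≤ β t := fun t => sum_nonneg fun i _ => mul_nonneg (hlam0 i) (hpi i)
  have hβsum : ∑ t ∈ range T, β t ≤ 1/2 := by
    have h1 : ∑ t ∈ range T, β t = ∑ i ∈ P, lam i * pi i :=
      sum_fiberwise_of_maps_to hclsT _
    rw [h1]
    refine le_trans ?_ hbud
    exact sum_le_sum_of_subset_of_nonneg (subset_univ _) fun i _ _ => mul_nonneg (hlam0 i) (hpi i)
  set y : ℕ → ℝ := fun t => β t * 2^t + ((t:ℝ)+1)/9 with hy
  have hy0 : ∀ t, 0 < y t := by
    intro t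
    have h1 := hβ0 t
    have h2 : (0:ℝ) < 2^t := by positivity
    have h3 : 0 ≤ β t * 2^t := mul_nonneg h1 h2.le
    have h4 : (0:ℝ) < ((t:ℝ)+1)/9 := by positivity
    simp only [hy]; linarith
  set m : ℕ → ℕ := fun t => ⌈y t⌉₊ with hm
  have hm1 : ∀ t, 1 ≤ m t := fun t => Nat.ceil_pos.mpr (hy0 t)
  have hmy : ∀ t, y t ≤ m t := fun t => Nat.le_ceil _
  have hmy' : ∀ t, (m t : ℝ) < y t + 1 := fun t => Nat.ceil_lt_add_one (hy0 t).le
  refine ⟨(range T).biUnion (fun t => (C t).powersetCard (m t)), ?_, ?_, ?_, ?_⟩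
  · intro J hJ i hi
    obtain ⟨t, -, hJt⟩ := mem_biUnion.mp hJ
    have h1 := (mem_powersetCard.mp hJt).1 hi
    have h2 := (mem_filter.mp h1).1
    exact (mem_filter.mp h2).2
  · intro J hJ
    obtain ⟨t, -, hJt⟩ := mem_biUnion.mp hJ
    rw [← card_pos, (mem_powersetCard.mp hJt).2]
    exact hm1 t
  · intro I hI
    by_contra hcon
    push Not at hcon
    have hcard : ∀ t ∈ range T,
        ((I ∩ C t).card : ℝ) * (1/2:ℝ)^t ≤ β t + ((t:ℝ)+1)/9 * (1/2:ℝ)^t := by
      intro t ht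
      have hlt : (I ∩ C t).card < m t := by
        by_contra hge
        push Not at hge
        obtain ⟨J, hJ, hJc⟩ := exists_subset_card_eq hge
        exact hcon J (mem_biUnion.mpr ⟨t, ht, mem_powersetCard.mpr
          ⟨hJ.trans inter_subset_right, hJc⟩⟩) (hJ.trans inter_subset_left)
      have h1 : ((I ∩ C t).card : ℝ) + 1 ≤ m t := by exact_mod_cast hlt
      have h2 := hmy' t
      have h3 : ((I ∩ C t).card : ℝ) ≤ y t := by linarith
      have h4 : (0:ℝ) < (1/2:ℝ)^t := by positivity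
      calc ((I ∩ C t).card : ℝ) * (1/2:ℝ)^t ≤ y t * (1/2:ℝ)^t :=
            mul_le_mul_of_nonneg_right h3 h4.le
        _ = β t + ((t:ℝ)+1)/9 * (1/2:ℝ)^t := by
            simp only [hy]
            have : (2:ℝ)^t * (1/2:ℝ)^t = 1 := by rw [← mul_pow]; norm_num
            rw [add_mul, mul_assoc, this, mul_one]
    have hsumI : ∑ i ∈ I, lam i = ∑ i ∈ I ∩ P, lam i := by
      symm
      refine sum_subset inter_subset_left ?_
      intro i hi hni
      have : ¬ 0 < lam i := fun h => hni (mem_inter.mpr ⟨hi, mem_filter.mpr ⟨mem_univ _, h⟩⟩)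
      exact le_antisymm (not_lt.mp this) (hlam0 i)
    have hfib : ∑ i ∈ I ∩ P, lam i
        = ∑ t ∈ range T, ∑ i ∈ (I ∩ P).filter (fun i => cls i = t), lam i := by
      symm
      exact sum_fiberwise_of_maps_to (fun i hi => hclsT i (mem_inter.mp hi).2) _
    have hle : ∑ i ∈ I, lam i ≤ ∑ t ∈ range T, (β t + ((t:ℝ)+1)/9 * (1/2:ℝ)^t) := by
      rw [hsumI, hfib]
      refine sum_le_sum fun t ht => ?_
      refine le_trans ?_ (hcard t ht)
      have hfil : (I ∩ P).filter (fun i => cls i = t) = I ∩ C t := by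
        ext i; simp only [mem_filter, mem_inter, hC]; tauto
      rw [hfil]
      calc ∑ i ∈ I ∩ C t, lam i ≤ ∑ i ∈ I ∩ C t, (1/2:ℝ)^t := by
            refine sum_le_sum fun i hi => ?_
            have hiC := (mem_inter.mp hi).2
            have hiP := (mem_filter.mp hiC).1
            have hcl := (mem_filter.mp hiC).2
            have h := (hcls i (mem_filter.mp hiP).2).2
            rw [hcl] at h
            exact h
        _ = ((I ∩ C t).card : ℝ) * (1/2:ℝ)^t := by rw [sum_const, nsmul_eq_mul]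
    have h4 : ∑ t ∈ range T, (β t + ((t:ℝ)+1)/9 * (1/2:ℝ)^t) ≤ 1/2 + 4/9 := by
      rw [sum_add_distrib]
      have h5 : ∑ t ∈ range T, ((t:ℝ)+1)/9 * (1/2:ℝ)^t
          = (1/9) * ∑ t ∈ range T, ((t:ℝ)+1) * (1/2:ℝ)^t := by
        rw [mul_sum]; exact sum_congr rfl fun t _ => by ring
      rw [h5, sum_succ_half]
      have h6 : (0:ℝ) ≤ (2*T+4) * (1/2:ℝ)^T := by positivity
      linarith
    linarith
  · have hdisj : ((range T : Finset ℕ) : Set ℕ).PairwiseDisjoint
        (fun t => (C t).powersetCard (m t)) := by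
      intro t _ t' _ htt
      rw [Function.onFun, disjoint_left]
      intro J hJ hJ'
      have hJ1 := mem_powersetCard.mp hJ
      have hJ2 := mem_powersetCard.mp hJ'
      have hne : J.Nonempty := by rw [← card_pos, hJ1.2]; exact hm1 t
      obtain ⟨i, hi⟩ := hne
      have e1 := (mem_filter.mp (hJ1.1 hi)).2
      have e2 := (mem_filter.mp (hJ2.1 hi)).2
      exact htt (e1.symm.trans e2)
    rw [sum_biUnion hdisj]
    have hKpos : (0:ℝ) < K := by linarith
    have hK2 : 1/(K/2) * Real.exp 1 ≤ (1/3:ℝ)^9 := by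
      have he := Real.exp_one_lt_d9
      have h2 : 1/(K/2) = 2/K := by field_simp
      rw [h2, div_mul_eq_mul_div, div_le_iff₀ hKpos]
      norm_num at he ⊢
      linarith
    have hterm : ∀ t ∈ range T,
        ∑ J ∈ (C t).powersetCard (m t), ∏ i ∈ J, (pi i / K) ≤ (1/3:ℝ)^(t+1) := by
      intro t _
      have h1 := powersetCard_prod_le (C t) (fun i => pi i / K)
        (fun i _ => div_nonneg (hpi i) hKpos.le) (m t) (K/2) (by linarith)
      refine le_trans h1 ?_
      have hexp : K/2 * ∑ i ∈ C t, pi i / K ≤ m t := by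
        have e1 : K/2 * ∑ i ∈ C t, pi i / K = (1/2) * ∑ i ∈ C t, pi i := by
          rw [← sum_div]; field_simp
        rw [e1]
        have e2 : ∑ i ∈ C t, pi i ≤ 2^(t+1) * β t := by
          simp only [hβ]
          rw [mul_sum]
          refine sum_le_sum fun i hi => ?_
          have hiP := (mem_filter.mp hi).1
          have hcl := (mem_filter.mp hi).2
          have h := (hcls i (mem_filter.mp hiP).2).1
          rw [hcl] at h
          have h2 : (2:ℝ)^(t+1) * (1/2:ℝ)^(t+1) = 1 := by rw [← mul_pow]; norm_num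
          have h3 : (0:ℝ) < 2^(t+1) := by positivity
          have h4 : (1/2:ℝ)^(t+1) * pi i ≤ lam i * pi i :=
            mul_le_mul_of_nonneg_right h.le (hpi i)
          calc pi i = 2^(t+1) * ((1/2:ℝ)^(t+1) * pi i) := by rw [← mul_assoc, h2, one_mul]
            _ ≤ 2^(t+1) * (lam i * pi i) := mul_le_mul_of_nonneg_left h4 h3.le
        have e3 : (1/2:ℝ) * (2^(t+1) * β t) = β t * 2^t := by rw [pow_succ]; ring
        have e4 : β t * 2^t ≤ y t := by
          simp only [hy]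
          have : (0:ℝ) ≤ ((t:ℝ)+1)/9 := by positivity
          linarith
        have e5 := hmy t
        linarith
      calc (1/(K/2))^(m t) * Real.exp (K/2 * ∑ i ∈ C t, pi i / K)
          ≤ (1/(K/2))^(m t) * Real.exp (m t) :=
            mul_le_mul_of_nonneg_left (Real.exp_le_exp.mpr hexp) (by positivity)
        _ = (1/(K/2) * Real.exp 1)^(m t) := by
            rw [mul_pow, ← Real.exp_nat_mul, mul_one]
        _ ≤ ((1/3:ℝ)^9)^(m t) := pow_le_pow_left₀ (by positivity) hK2 _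
        _ = (1/3:ℝ)^(9 * m t) := by rw [← pow_mul]
        _ ≤ (1/3:ℝ)^(t+1) := by
            refine pow_le_pow_of_le_one (by norm_num) (by norm_num) ?_
            have h5 : ((t:ℝ)+1)/9 ≤ y t := by
              simp only [hy]
              have h7 : (0:ℝ) ≤ β t * 2^t := mul_nonneg (hβ0 t) (by positivity)
              linarith
            have h6 : ((t:ℝ)+1) ≤ 9 * (m t : ℝ) := by have := hmy t; linarith
            exact_mod_cast h6
    calc ∑ t ∈ range T, ∑ J ∈ (C t).powersetCard (m t), ∏ i ∈ J, (pi i / K)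
        ≤ ∑ t ∈ range T, (1/3:ℝ)^(t+1) := sum_le_sum hterm
      _ = (1 - (1/3:ℝ)^T)/2 := sum_third T
      _ ≤ 1/2 := by have : (0:ℝ) ≤ (1/3:ℝ)^T := by positivity
                    linarith

/-- Weighted form of the singleton rounding: from fractional weights `lam` of total cost at most
`1/2` against the prices `pi`, one gets an integral cover by products at prices `pi / K`. -/
theorem core {ι : Type*} [Fintype ι] [DecidableEq ι] (lam pi : ι → ℝ)
    (hlam0 : ∀ i, 0 ≤ lam i) (hpi : ∀ i, 0 ≤ pi i)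
    (hbud : ∑ i, lam i * pi i ≤ 1/2) (K : ℝ) (hK : 1000000 ≤ K) :
    ∃ G : Finset (Finset ι), (∀ J ∈ G, ∀ i ∈ J, 0 < lam i) ∧ (∀ J ∈ G, J.Nonempty) ∧
      (∀ I : Finset ι, 1 ≤ ∑ i ∈ I, lam i → ∃ J ∈ G, J ⊆ I) ∧
      ∑ J ∈ G, ∏ i ∈ J, (pi i / K) ≤ 1/2 := by
  obtain ⟨G, h1, h2, h3, h4⟩ := core_aux (fun i => min 1 (lam i)) pi
    (fun i => le_min zero_le_one (hlam0 i)) (fun i => min_le_left _ _) hpi
    (le_trans (sum_le_sum fun i _ =>
      mul_le_mul_of_nonneg_right (min_le_right _ _) (hpi i)) hbud) K hK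
  refine ⟨G, ?_, h2, ?_, h4⟩
  · intro J hJ i hi
    exact lt_of_lt_of_le (h1 J hJ i hi) (min_le_right _ _)
  · intro I hI
    apply h3
    by_cases hex : ∃ i ∈ I, 1 ≤ lam i
    · obtain ⟨i, hi, hi1⟩ := hex
      calc (1:ℝ) = min 1 (lam i) := by rw [min_eq_left hi1]
        _ ≤ ∑ i ∈ I, min 1 (lam i) :=
          single_le_sum (f := fun i => min 1 (lam i))
            (fun j _ => le_min zero_le_one (hlam0 j)) hi
    · push Not at hex
      have : ∑ i ∈ I, min 1 (lam i) = ∑ i ∈ I, lam i :=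
        sum_congr rfl fun i hi => min_eq_right (hex i hi).le
      rw [this]; exact hI

end Vale.Agent.Lib.P034
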