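import Vale.Agent.Lib.P034.Core

namespace Vale.Agent.Lib.P034

open Finset

/-- A fractional cover whose support consists of pairwise disjoint sets can be rounded to an
integral cover after dividing the probability by an absolute constant. -/
theorem disjoint_support {X : Type*} [Fintype X] [DecidableEq X] (F : Finset (Finset X))
    (p : ℝ) (hp0 : 0 ≤ p) (g : Finset X → ℝ) (hg0 : ∀ S, 0 ≤ g S)
    (hcov : ∀ H ∈ F, 1 ≤ ∑ S ∈ H.powerset, g S)
    (hcost : ∑ S : Finset X, g S * p ^ S.card ≤ 1/2)
    (hdisj : ∀ S T, g S ≠ 0 → g T ≠ 0 → S ≠ T → Disjoint S T) :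
    ∃ G : Finset (Finset X), (∀ H ∈ F, ∃ S ∈ G, S ⊆ H) ∧
      ∑ S ∈ G, (p / 1000000) ^ S.card ≤ 1/2 := by
  classical
  set c : ℝ := g ∅ with hc
  have hc0 : 0 ≤ c := hg0 ∅
  have hc12 : c ≤ 1/2 := by
    have h1 : g ∅ * p ^ (∅ : Finset X).card ≤ ∑ S : Finset X, g S * p ^ S.card :=
      single_le_sum (f := fun S => g S * p ^ S.card)
        (fun S _ => mul_nonneg (hg0 S) (pow_nonneg hp0 _)) (mem_univ ∅)
    simp only [card_empty, pow_zero, mul_one] at h1
    linarith
  have hc1 : 0 < 1 - c := by linarith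
  set lam : Finset X → ℝ := fun S => if S = ∅ then 0 else g S / (1 - c) with hlam
  have hlam0 : ∀ S, 0 ≤ lam S := by
    intro S
    simp only [hlam]
    split_ifs
    · exact le_rfl
    · exact div_nonneg (hg0 S) hc1.le
  have hlam_eq : ∀ S, lam S = (g S - if S = ∅ then c else 0) / (1 - c) := by
    intro S
    simp only [hlam]
    split_ifs with h
    · subst h; simp [hc]
    · rw [sub_zero]
  have hterm : ∀ S : Finset X,
      lam S * p ^ S.card = (g S * p ^ S.card - if S = ∅ then c else 0) / (1 - c) := by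
    intro S
    simp only [hlam]
    split_ifs with h
    · subst h; simp [hc]
    · rw [sub_zero]; ring
  have hbud : ∑ S : Finset X, lam S * p ^ S.card ≤ 1/2 := by
    have h1 : ∑ S : Finset X, lam S * p ^ S.card
        = (∑ S : Finset X, g S * p ^ S.card - c) / (1 - c) := by
      rw [sum_congr rfl (fun S _ => hterm S), ← sum_div, sum_sub_distrib]
      simp
    rw [h1, div_le_iff₀ hc1]
    linarith
  obtain ⟨GG, hpos, hne, hcover, hcostG⟩ := core lam (fun S => p ^ S.card) hlam0
    (fun S => pow_nonneg hp0 _) hbud 1000000 le_rfl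
  have hsupp : ∀ J ∈ GG, ∀ S ∈ J, S ≠ ∅ ∧ g S ≠ 0 := by
    intro J hJ S hS
    have h := hpos J hJ S hS
    simp only [hlam] at h
    split_ifs at h with h0
    · exact absurd h (lt_irrefl _)
    · refine ⟨h0, ?_⟩
      intro hz; rw [hz, zero_div] at h; exact lt_irrefl _ h
  refine ⟨GG.image (fun J => J.biUnion id), ?_, ?_⟩
  · intro H hH
    have h1 : 1 ≤ ∑ S ∈ H.powerset, lam S := by
      have h2 : ∑ S ∈ H.powerset, lam S = (∑ S ∈ H.powerset, g S - c) / (1 - c) := by
        rw [sum_congr rfl (fun S _ => hlam_eq S), ← sum_div, sum_sub_distrib]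
        simp
      rw [h2, le_div_iff₀ hc1]
      have := hcov H hH
      linarith
    obtain ⟨J, hJ, hJsub⟩ := hcover _ h1
    refine ⟨J.biUnion id, mem_image_of_mem _ hJ, ?_⟩
    intro x hx
    obtain ⟨S, hS, hxS⟩ := mem_biUnion.mp hx
    exact mem_powerset.mp (hJsub hS) hxS
  · calc ∑ U ∈ GG.image (fun J => J.biUnion id), (p / 1000000) ^ U.card
        ≤ ∑ J ∈ GG, (p / 1000000) ^ (J.biUnion id).card :=
          sum_image_le_of_nonneg (fun U _ => by positivity)
      _ ≤ ∑ J ∈ GG, ∏ S ∈ J, (p ^ S.card / 1000000) := by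
          refine sum_le_sum fun J hJ => ?_
          have hpd : ((J : Finset (Finset X)) : Set (Finset X)).PairwiseDisjoint id :=
            fun S hS T hT hST => hdisj S T (hsupp J hJ S hS).2 (hsupp J hJ T hT).2 hST
          rw [card_biUnion hpd, ← prod_pow_eq_pow_sum]
          refine prod_le_prod (fun S _ => by positivity) (fun S hS => ?_)
          have hS1 : 1 ≤ S.card :=
            card_pos.mpr (nonempty_iff_ne_empty.mpr (hsupp J hJ S hS).1)
          rw [div_pow]
          have h3 : (1000000:ℝ) ≤ 1000000 ^ S.card := by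
            calc (1000000:ℝ) = 1000000 ^ 1 := (pow_one _).symm
              _ ≤ 1000000 ^ S.card := pow_le_pow_right₀ (by norm_num) hS1
          exact div_le_div_of_nonneg_left (pow_nonneg hp0 _) (by norm_num) h3
      _ ≤ 1/2 := hcostG

end Vale.Agent.Lib.P034
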